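import Vale.Agent.Lib.P371.Ineq

namespace Vale.Agent.Lib.P371

open Real Set MeasureTheory

/-- The calibration density `μ_κ(s) = M_p (κ² - s²)_+^(p-1)`. -/
noncomputable def mu (p κ s : ℝ) : ℝ := Mconst p * (max (κ ^ 2 - s ^ 2) 0) ^ (p - 1)

lemma mu_continuous {p : ℝ} (hp : 1 < p) (κ : ℝ) : Continuous (mu p κ) := by
  unfold mu
  apply continuous_const.mul
  apply Continuous.rpow_const (by fun_prop)
  intro x
  exact Or.inr (by linarith)

/-- `I_p = ∫_{-1}^{1} (1 - t²)^(p-1) dt`. -/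
noncomputable def Ip (p : ℝ) : ℝ := ∫ t in (-1 : ℝ)..1, (1 - t ^ 2) ^ (p - 1)

lemma integral_mu_comp {p : ℝ} (hp : 1 < p) (κ : ℝ) {F F' : ℝ → ℝ} {a b : ℝ}
    (hF : ∀ x ∈ uIcc a b, HasDerivAt F (F' x) x) (hF' : ContinuousOn F' (uIcc a b)) :
    ∫ x in a..b, mu p κ (F x) * F' x = ∫ s in F a..F b, mu p κ s :=
  intervalIntegral.integral_comp_mul_deriv (g := mu p κ) hF hF' (mu_continuous hp κ)

lemma integral_mu {p : ℝ} (hp : 1 < p) {κ : ℝ} (hκ : 0 < κ) :
    ∫ s in (-κ)..κ, mu p κ s = Mconst p * κ ^ (2 * p - 1) * Ip p := by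
  have h1 := intervalIntegral.integral_comp_mul_left (a := -1) (b := 1) (mu p κ) hκ.ne'
  have e1 : κ * -1 = -κ := by ring
  have e2 : κ * 1 = κ := by ring
  rw [e1, e2, smul_eq_mul] at h1
  have h2 : ∫ s in (-κ)..κ, mu p κ s = κ * ∫ t in (-1 : ℝ)..1, mu p κ (κ * t) := by
    rw [h1]; field_simp
  rw [h2]
  have h3 : ∫ t in (-1 : ℝ)..1, mu p κ (κ * t)
      = ∫ t in (-1 : ℝ)..1, (Mconst p * (κ ^ 2) ^ (p - 1)) * (1 - t ^ 2) ^ (p - 1) := by
    apply intervalIntegral.integral_congr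
    intro t ht
    rw [uIcc_of_le (by norm_num)] at ht
    have ht2 : 0 ≤ 1 - t ^ 2 := by nlinarith [ht.1, ht.2]
    simp only [mu]
    have : κ ^ 2 - (κ * t) ^ 2 = κ ^ 2 * (1 - t ^ 2) := by ring
    rw [this, max_eq_left (by positivity), mul_rpow (by positivity) ht2]
    ring
  rw [h3, intervalIntegral.integral_const_mul]
  have h4 : κ * (κ ^ 2) ^ (p - 1) = κ ^ (2 * p - 1) := by
    rw [← rpow_natCast κ 2, ← rpow_mul hκ.le]
    nth_rewrite 1 [← rpow_one κ]
    rw [← rpow_add hκ]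
    congr 1
    push_cast
    ring
  unfold Ip
  rw [← h4]
  ring

/-- The real Beta integral. -/
lemma real_beta_integral {a b : ℝ} (ha : 0 < a) (hb : 0 < b) :
    ∫ x in (0 : ℝ)..1, x ^ (a - 1) * (1 - x) ^ (b - 1)
      = Real.Gamma a * Real.Gamma b / Real.Gamma (a + b) := by
  have h := ProbabilityTheory.beta_eq_betaIntegralReal a b ha hb
  unfold ProbabilityTheory.beta at h
  rw [h, Complex.betaIntegral, intervalIntegral.integral_of_le (by norm_num),
    intervalIntegral.integral_of_le (by norm_num), ← RCLike.re_to_complex, ← integral_re]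
  · refine setIntegral_congr_fun measurableSet_Ioc fun x ⟨hx1, hx₂⟩ ↦ ?_
    norm_cast
    rw [← Complex.ofReal_cpow, ← Complex.ofReal_cpow, RCLike.re_to_complex,
      Complex.re_mul_ofReal, Complex.ofReal_re]
    all_goals linarith
  · have := Complex.betaIntegral_convergent (u := a) (v := b) (by simpa) (by simpa)
    rw [intervalIntegrable_iff_integrableOn_Ioc_of_le (by simp), IntegrableOn] at this
    exact this

lemma Ip_eq {p : ℝ} (hp : 0 < p) :
    Ip p = Real.sqrt π * Real.Gamma p / Real.Gamma (p + 1 / 2) := by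
  -- substitution t = 2 x - 1
  have h1 := intervalIntegral.integral_comp_mul_sub (a := 0) (b := 1)
    (fun t : ℝ => (1 - t ^ 2) ^ (p - 1)) (c := 2) (by norm_num) 1
  have e1 : (2 : ℝ) * 0 - 1 = -1 := by norm_num
  have e2 : (2 : ℝ) * 1 - 1 = 1 := by norm_num
  rw [e1, e2, smul_eq_mul] at h1
  have h2 : Ip p = 2 * ∫ x in (0 : ℝ)..1, (1 - (2 * x - 1) ^ 2) ^ (p - 1) := by
    rw [h1]; unfold Ip; ring
  have h3 : ∫ x in (0 : ℝ)..1, (1 - (2 * x - 1) ^ 2) ^ (p - 1)
      = ∫ x in (0 : ℝ)..1, (4 : ℝ) ^ (p - 1) * (x ^ (p - 1) * (1 - x) ^ (p - 1)) := by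
    apply intervalIntegral.integral_congr
    intro x hx
    rw [uIcc_of_le (by norm_num)] at hx
    have : 1 - (2 * x - 1) ^ 2 = 4 * (x * (1 - x)) := by ring
    simp only
    rw [this, mul_rpow (by norm_num) (mul_nonneg hx.1 (by linarith [hx.2])),
      mul_rpow hx.1 (by linarith [hx.2])]
  rw [h2, h3, intervalIntegral.integral_const_mul, real_beta_integral hp hp]
  have hdup := Real.Gamma_mul_Gamma_add_half p
  have hG1 : 0 < Real.Gamma p := Real.Gamma_pos_of_pos hp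
  have hG2 : 0 < Real.Gamma (p + 1 / 2) := Real.Gamma_pos_of_pos (by linarith)
  have hG3 : 0 < Real.Gamma (2 * p) := Real.Gamma_pos_of_pos (by linarith)
  have e3 : p + p = 2 * p := by ring
  rw [e3]
  have h4 : (4 : ℝ) ^ (p - 1) = 2 ^ (2 * p - 2) := by
    have : (4 : ℝ) = 2 ^ (2 : ℝ) := by norm_num
    rw [this, ← rpow_mul (by norm_num)]
    congr 1; ring
  have h5 : (2 : ℝ) ^ (2 * p - 2) * 2 ^ (1 - 2 * p) = 2⁻¹ := by
    rw [← rpow_add (by norm_num)]
    have : 2 * p - 2 + (1 - 2 * p) = -1 := by ring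
    rw [this, rpow_neg_one]
  rw [h4, eq_div_iff hG2.ne']
  calc 2 * (2 ^ (2 * p - 2) * (Real.Gamma p * Real.Gamma p / Real.Gamma (2 * p)))
        * Real.Gamma (p + 1 / 2)
      = 2 * 2 ^ (2 * p - 2) * Real.Gamma p * (Real.Gamma p * Real.Gamma (p + 1 / 2))
          / Real.Gamma (2 * p) := by ring
    _ = 2 * (2 ^ (2 * p - 2) * 2 ^ (1 - 2 * p)) * Real.Gamma p * Real.sqrt π := by
        rw [hdup]; field_simp
    _ = Real.sqrt π * Real.Gamma p := by rw [h5]; ring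
  
end Vale.Agent.Lib.P371
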