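import Vale.Agent.Lib.P371.LogConcave

namespace Vale.Agent.Lib.P371

open Real Set MeasureTheory

variable {V : ℝ → ℝ} {κ₁ κ₂ : ℝ} {ψ₁ ψ₁' ψ₂ ψ₂' : ℝ → ℝ}

/-- The Darboux (commutation) transform of a second solution by a nonvanishing solution. -/
lemma darboux (h1 : Sol V κ₁ ψ₁ ψ₁') (h2 : Sol V κ₂ ψ₂ ψ₂') (hne : ∀ x, ψ₁ x ≠ 0) :
    Sol (fun x => 2 * (κ₁ ^ 2 - (ψ₁' x / ψ₁ x) ^ 2) - V x) κ₂
      (fun x => ψ₂' x - ψ₁' x / ψ₁ x * ψ₂ x)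
      (fun x => - (ψ₁' x / ψ₁ x) * (ψ₂' x - ψ₁' x / ψ₁ x * ψ₂ x) - (κ₁ ^ 2 - κ₂ ^ 2) * ψ₂ x) := by
  have hF := h1.riccati hne
  have hd1 : ∀ x, HasDerivAt (fun x => ψ₂' x - ψ₁' x / ψ₁ x * ψ₂ x)
      (- (ψ₁' x / ψ₁ x) * (ψ₂' x - ψ₁' x / ψ₁ x * ψ₂ x) - (κ₁ ^ 2 - κ₂ ^ 2) * ψ₂ x) x := by
    intro x
    refine ((h2.d2 x).sub ((hF x).mul (h2.d1 x))).congr_deriv ?_
    ring
  constructor
  · exact hd1
  · intro x
    refine ((((hF x).neg).mul (hd1 x)).sub ((h2.d1 x).const_mul (κ₁ ^ 2 - κ₂ ^ 2))).congr_deriv ?_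
    simp only [Pi.neg_apply]
    ring

lemma wronskian_hasDerivAt (h1 : Sol V κ₁ ψ₁ ψ₁') (h2 : Sol V κ₂ ψ₂ ψ₂') (x : ℝ) :
    HasDerivAt (fun y => ψ₁ y * ψ₂' y - ψ₁' y * ψ₂ y) ((κ₂ ^ 2 - κ₁ ^ 2) * (ψ₁ x * ψ₂ x)) x := by
  refine (((h1.d1 x).mul (h2.d2 x)).sub ((h1.d2 x).mul (h2.d1 x))).congr_deriv ?_
  ring

lemma wronskian_pos (h1 : Sol V κ₁ ψ₁ ψ₁') (h2 : Sol V κ₂ ψ₂ ψ₂') (hκ : κ₂ < κ₁) (hκ₂ : 0 < κ₂)
    (hpos : ∀ x, 0 < ψ₁ x) {z A : ℝ} (hneg2 : ∀ x, x < z → ψ₂ x < 0) (hpos2 : ∀ x, z < x → 0 < ψ₂ x)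
    (hl1 : ∀ x, x ≤ -A → ψ₁' x = κ₁ * ψ₁ x) (hr1 : ∀ x, A ≤ x → ψ₁' x = - κ₁ * ψ₁ x)
    (hl2 : ∀ x, x ≤ -A → ψ₂' x = κ₂ * ψ₂ x) (hr2 : ∀ x, A ≤ x → ψ₂' x = - κ₂ * ψ₂ x) (x : ℝ) :
    0 < ψ₁ x * ψ₂' x - ψ₁' x * ψ₂ x := by
  have hW := wronskian_hasDerivAt h1 h2
  have hE : κ₂ ^ 2 - κ₁ ^ 2 < 0 := by nlinarith
  rcases le_total x z with hx | hx
  · have hmono : MonotoneOn (fun y => ψ₁ y * ψ₂' y - ψ₁' y * ψ₂ y) (Iic z) := by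
      apply monotoneOn_of_deriv_nonneg (convex_Iic z)
      · exact fun y _ => (hW y).continuousAt.continuousWithinAt
      · exact fun y _ => (hW y).differentiableAt.differentiableWithinAt
      · intro y hy
        rw [interior_Iic] at hy
        rw [(hW y).deriv]
        exact (mul_pos_of_neg_of_neg hE (mul_neg_of_pos_of_neg (hpos y) (hneg2 y hy))).le
    obtain ⟨x0, hx0⟩ : ∃ x0, x0 = min (min x (-A)) (z - 1) := ⟨_, rfl⟩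
    have e1 : x0 ≤ x := by rw [hx0]; exact (min_le_left _ _).trans (min_le_left _ _)
    have e2 : x0 ≤ -A := by rw [hx0]; exact (min_le_left _ _).trans (min_le_right _ _)
    have e3 : x0 < z := by
      have : x0 ≤ z - 1 := by rw [hx0]; exact min_le_right _ _
      linarith
    have h3 := hmono (mem_Iic.2 e3.le) (mem_Iic.2 hx) e1
    simp only at h3
    have h4 : 0 < ψ₁ x0 * ψ₂' x0 - ψ₁' x0 * ψ₂ x0 := by
      rw [hl1 x0 e2, hl2 x0 e2]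
      have : ψ₁ x0 * (κ₂ * ψ₂ x0) - κ₁ * ψ₁ x0 * ψ₂ x0 = (κ₂ - κ₁) * (ψ₁ x0 * ψ₂ x0) := by ring
      rw [this]
      exact mul_pos_of_neg_of_neg (by linarith) (mul_neg_of_pos_of_neg (hpos x0) (hneg2 x0 e3))
    linarith
  · have hanti : AntitoneOn (fun y => ψ₁ y * ψ₂' y - ψ₁' y * ψ₂ y) (Ici z) := by
      apply antitoneOn_of_deriv_nonpos (convex_Ici z)
      · exact fun y _ => (hW y).continuousAt.continuousWithinAt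
      · exact fun y _ => (hW y).differentiableAt.differentiableWithinAt
      · intro y hy
        rw [interior_Ici] at hy
        rw [(hW y).deriv]
        exact (mul_neg_of_neg_of_pos hE (mul_pos (hpos y) (hpos2 y hy))).le
    obtain ⟨x0, hx0⟩ : ∃ x0, x0 = max (max x A) (z + 1) := ⟨_, rfl⟩
    have e1 : x ≤ x0 := by rw [hx0]; exact (le_max_left _ _).trans (le_max_left _ _)
    have e2 : A ≤ x0 := by rw [hx0]; exact (le_max_right _ _).trans (le_max_left _ _)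
    have e3 : z < x0 := by
      have : z + 1 ≤ x0 := by rw [hx0]; exact le_max_right _ _
      linarith
    have h3 := hanti (mem_Ici.2 hx) (mem_Ici.2 e3.le) e1
    simp only at h3
    have h4 : 0 < ψ₁ x0 * ψ₂' x0 - ψ₁' x0 * ψ₂ x0 := by
      rw [hr1 x0 e2, hr2 x0 e2]
      have : ψ₁ x0 * (-κ₂ * ψ₂ x0) - -κ₁ * ψ₁ x0 * ψ₂ x0 = (κ₁ - κ₂) * (ψ₁ x0 * ψ₂ x0) := by ring
      rw [this]
      exact mul_pos (by linarith) (mul_pos (hpos x0) (hpos2 x0 e3))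
    linarith

/-- The core calibration estimate in Riccati variables. -/
theorem core {p : ℝ} (hp : 1 < p) (hp2 : p ≤ 2) {F₁ F₂ : ℝ → ℝ} {a b : ℝ} (hab : a ≤ b)
    (hκ₁ : 0 < κ₁) (hκ₂ : 0 < κ₂) (hVc : Continuous V) (hV0 : ∀ x, 0 ≤ V x)
    (hF₁ : ∀ x, HasDerivAt F₁ (κ₁ ^ 2 - V x - F₁ x ^ 2) x)
    (hF₂ : ∀ x, HasDerivAt F₂ (κ₂ ^ 2 - (2 * (κ₁ ^ 2 - F₁ x ^ 2) - V x) - F₂ x ^ 2) x)
    (hlc : ∀ x, κ₁ ^ 2 - V x ≤ F₁ x ^ 2)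
    (ha1 : F₁ a = κ₁) (hb1 : F₁ b = -κ₁) (ha2 : F₂ a = κ₂) (hb2 : F₂ b = -κ₂) :
    Mconst p * Ip p * (κ₁ ^ (2 * p - 1) + κ₂ ^ (2 * p - 1)) ≤ ∫ x in a..b, V x ^ p := by
  have hF₁c : Continuous F₁ := continuous_iff_continuousAt.2 fun x => (hF₁ x).continuousAt
  have hF₂c : Continuous F₂ := continuous_iff_continuousAt.2 fun x => (hF₂ x).continuousAt
  have hd1c : Continuous (fun x => κ₁ ^ 2 - V x - F₁ x ^ 2) := by fun_prop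
  have hd2c : Continuous (fun x => κ₂ ^ 2 - (2 * (κ₁ ^ 2 - F₁ x ^ 2) - V x) - F₂ x ^ 2) := by
    fun_prop
  have hm1 := mu_continuous hp κ₁
  have hm2 := mu_continuous hp κ₂
  have i1 := integral_mu_comp hp κ₁ (a := a) (b := b) (fun x _ => hF₁ x) hd1c.continuousOn
  have i2 := integral_mu_comp hp κ₂ (a := a) (b := b) (fun x _ => hF₂ x) hd2c.continuousOn
  rw [ha1, hb1, intervalIntegral.integral_symm (-κ₁) κ₁, integral_mu hp hκ₁] at i1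
  rw [ha2, hb2, intervalIntegral.integral_symm (-κ₂) κ₂, integral_mu hp hκ₂] at i2
  have hpt : ∀ x, - (mu p κ₁ (F₁ x) * (κ₁ ^ 2 - V x - F₁ x ^ 2))
      - (mu p κ₂ (F₂ x) * (κ₂ ^ 2 - (2 * (κ₁ ^ 2 - F₁ x ^ 2) - V x) - F₂ x ^ 2)) ≤ V x ^ p := by
    intro x
    have s1 := step_ineq hp hp2 (κ₁ ^ 2 - F₁ x ^ 2) (V x - (κ₁ ^ 2 - F₁ x ^ 2))
      (by linarith [hlc x])
    have s2 := keller_ineq hp (κ₂ ^ 2 - F₂ x ^ 2)
      ((2 * (κ₁ ^ 2 - F₁ x ^ 2) - V x) - (κ₂ ^ 2 - F₂ x ^ 2))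
    have e1 : κ₁ ^ 2 - F₁ x ^ 2 + (V x - (κ₁ ^ 2 - F₁ x ^ 2)) = V x := by ring
    have e2 : κ₁ ^ 2 - F₁ x ^ 2 - (V x - (κ₁ ^ 2 - F₁ x ^ 2))
        = 2 * (κ₁ ^ 2 - F₁ x ^ 2) - V x := by ring
    have e3 : κ₂ ^ 2 - F₂ x ^ 2 + ((2 * (κ₁ ^ 2 - F₁ x ^ 2) - V x) - (κ₂ ^ 2 - F₂ x ^ 2))
        = 2 * (κ₁ ^ 2 - F₁ x ^ 2) - V x := by ring
    rw [e1, e2, max_eq_left (hV0 x)] at s1
    rw [e3] at s2
    simp only [mu]
    nlinarith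
  have hint1 : IntervalIntegrable (fun x => - (mu p κ₁ (F₁ x) * (κ₁ ^ 2 - V x - F₁ x ^ 2))
      - (mu p κ₂ (F₂ x) * (κ₂ ^ 2 - (2 * (κ₁ ^ 2 - F₁ x ^ 2) - V x) - F₂ x ^ 2))) volume a b := by
    apply Continuous.intervalIntegrable
    exact (((hm1.comp hF₁c).mul hd1c).neg).sub ((hm2.comp hF₂c).mul hd2c)
  have hint2 : IntervalIntegrable (fun x => V x ^ p) volume a b := by
    apply Continuous.intervalIntegrable
    exact hVc.rpow_const (fun x => Or.inr (by linarith))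
  have hmono := intervalIntegral.integral_mono_on hab hint1 hint2 (fun x _ => hpt x)
  rw [intervalIntegral.integral_sub, intervalIntegral.integral_neg, i1, i2] at hmono
  · calc Mconst p * Ip p * (κ₁ ^ (2 * p - 1) + κ₂ ^ (2 * p - 1))
        = - -(Mconst p * κ₁ ^ (2 * p - 1) * Ip p) - -(Mconst p * κ₂ ^ (2 * p - 1) * Ip p) := by
          ring
      _ ≤ _ := hmono
  · exact (((hm1.comp hF₁c).mul hd1c).neg).intervalIntegrable _ _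
  · exact ((hm2.comp hF₂c).mul hd2c).intervalIntegrable _ _

end Vale.Agent.Lib.P371
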