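import Vale.Agent.Lib.P371.Core

namespace Vale.Agent.Lib.P371

open Real Set MeasureTheory
open scoped NNReal

variable {V : ℝ → ℝ} {κ κ₁ κ₂ : ℝ} {ψ ψ' : ℝ → ℝ}

lemma mu_nonneg {p : ℝ} (hp : 1 < p) (κ s : ℝ) : 0 ≤ mu p κ s := by
  unfold mu
  exact mul_nonneg (Mconst_pos hp).le (rpow_nonneg (le_max_right _ _) _)

/-- A solution with vanishing Cauchy data vanishes identically (bounded potential). -/
lemma Sol.eq_zero (hs : Sol V κ ψ ψ') {C : ℝ} (hC : ∀ x, |κ ^ 2 - V x| ≤ C) {x₀ : ℝ}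
    (h0 : ψ x₀ = 0) (h0' : ψ' x₀ = 0) : ∀ x, ψ x = 0 := by
  have hC0 : 0 ≤ C := (abs_nonneg _).trans (hC 0)
  set K : ℝ≥0 := ⟨max 1 C, le_max_of_le_left zero_le_one⟩ with hK
  have hv : ∀ t, LipschitzOnWith K (fun y : ℝ × ℝ => (y.2, (κ ^ 2 - V t) * y.1)) univ := by
    intro t
    apply LipschitzWith.lipschitzOnWith
    apply LipschitzWith.of_dist_le_mul
    intro y y'
    rw [Prod.dist_eq, Prod.dist_eq]
    have hKc : (K : ℝ) = max 1 C := rfl
    rw [hKc]
    apply max_le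
    · calc dist y.2 y'.2 ≤ max (dist y.1 y'.1) (dist y.2 y'.2) := le_max_right _ _
        _ = 1 * max (dist y.1 y'.1) (dist y.2 y'.2) := (one_mul _).symm
        _ ≤ max 1 C * max (dist y.1 y'.1) (dist y.2 y'.2) :=
            mul_le_mul_of_nonneg_right (le_max_left _ _) (le_max_of_le_left dist_nonneg)
    · rw [Real.dist_eq, ← mul_sub, abs_mul]
      calc |κ ^ 2 - V t| * |y.1 - y'.1| ≤ C * |y.1 - y'.1| :=
            mul_le_mul_of_nonneg_right (hC t) (abs_nonneg _)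
        _ ≤ max 1 C * max (dist y.1 y'.1) (dist y.2 y'.2) := by
            apply mul_le_mul (le_max_right _ _) _ (abs_nonneg _) (le_max_of_le_left zero_le_one)
            rw [← Real.dist_eq]
            exact le_max_left _ _
  have huniq := ODE_solution_unique_univ (v := fun t (y : ℝ × ℝ) => (y.2, (κ ^ 2 - V t) * y.1))
    (s := fun _ => univ) (K := K) (f := fun t => (ψ t, ψ' t)) (g := fun _ => ((0 : ℝ), (0 : ℝ)))
    (t₀ := x₀) hv
    (fun t => ⟨(hs.d1 t).prodMk (hs.d2 t), mem_univ _⟩)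
    (fun t => ⟨(hasDerivAt_const t ((0 : ℝ), (0 : ℝ))).congr_deriv (by simp; rfl), mem_univ _⟩)
    (by simp [h0, h0'])
  intro x
  have := congrFun huniq x
  simpa using congrArg Prod.fst this

/-- First step: removing the log-concave ground state. -/
theorem core1 {p : ℝ} (hp : 1 < p) (hp2 : p ≤ 2) {F₁ : ℝ → ℝ} {a b : ℝ} (hab : a ≤ b)
    (hκ₁ : 0 < κ₁) (hVc : Continuous V) (hV0 : ∀ x, 0 ≤ V x)
    (hF₁ : ∀ x, HasDerivAt F₁ (κ₁ ^ 2 - V x - F₁ x ^ 2) x)
    (hlc : ∀ x, κ₁ ^ 2 - V x ≤ F₁ x ^ 2)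
    (ha1 : F₁ a = κ₁) (hb1 : F₁ b = -κ₁) :
    Mconst p * Ip p * κ₁ ^ (2 * p - 1)
      + ∫ x in a..b, (max (2 * (κ₁ ^ 2 - F₁ x ^ 2) - V x) 0) ^ p ≤ ∫ x in a..b, V x ^ p := by
  have hF₁c : Continuous F₁ := continuous_iff_continuousAt.2 fun x => (hF₁ x).continuousAt
  have hd1c : Continuous (fun x => κ₁ ^ 2 - V x - F₁ x ^ 2) := by fun_prop
  have hm1 := mu_continuous hp κ₁
  have i1 := integral_mu_comp hp κ₁ (a := a) (b := b) (fun x _ => hF₁ x) hd1c.continuousOn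
  rw [ha1, hb1, intervalIntegral.integral_symm (-κ₁) κ₁, integral_mu hp hκ₁] at i1
  have hpt : ∀ x, - (mu p κ₁ (F₁ x) * (κ₁ ^ 2 - V x - F₁ x ^ 2))
      + (max (2 * (κ₁ ^ 2 - F₁ x ^ 2) - V x) 0) ^ p ≤ V x ^ p := by
    intro x
    have s1 := step_ineq hp hp2 (κ₁ ^ 2 - F₁ x ^ 2) (V x - (κ₁ ^ 2 - F₁ x ^ 2))
      (by linarith [hlc x])
    have e1 : κ₁ ^ 2 - F₁ x ^ 2 + (V x - (κ₁ ^ 2 - F₁ x ^ 2)) = V x := by ring
    have e2 : κ₁ ^ 2 - F₁ x ^ 2 - (V x - (κ₁ ^ 2 - F₁ x ^ 2))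
        = 2 * (κ₁ ^ 2 - F₁ x ^ 2) - V x := by ring
    rw [e1, e2, max_eq_left (hV0 x)] at s1
    simp only [mu]
    nlinarith
  have hc1 : Continuous (fun x => - (mu p κ₁ (F₁ x) * (κ₁ ^ 2 - V x - F₁ x ^ 2))) :=
    ((hm1.comp hF₁c).mul hd1c).neg
  have hc2 : Continuous (fun x => (max (2 * (κ₁ ^ 2 - F₁ x ^ 2) - V x) 0) ^ p) := by
    apply Continuous.rpow_const (by fun_prop)
    intro x; exact Or.inr (by linarith)
  have hint2 : IntervalIntegrable (fun x => V x ^ p) volume a b := by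
    apply Continuous.intervalIntegrable
    exact hVc.rpow_const (fun x => Or.inr (by linarith))
  have hmono := intervalIntegral.integral_mono_on (f := fun x =>
      - (mu p κ₁ (F₁ x) * (κ₁ ^ 2 - V x - F₁ x ^ 2))
      + (max (2 * (κ₁ ^ 2 - F₁ x ^ 2) - V x) 0) ^ p) hab
    ((hc1.add hc2).intervalIntegrable a b) hint2 (fun x _ => hpt x)
  rw [intervalIntegral.integral_add (hc1.intervalIntegrable _ _) (hc2.intervalIntegrable _ _),
    intervalIntegral.integral_neg, i1] at hmono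
  calc _ = - -(Mconst p * κ₁ ^ (2 * p - 1) * Ip p)
        + ∫ x in a..b, (max (2 * (κ₁ ^ 2 - F₁ x ^ 2) - V x) 0) ^ p := by ring
    _ ≤ _ := hmono

/-- Second step: Keller's bound on an interval on which the Riccati variable runs from `κ` to a
value `≤ -κ`. -/
theorem core2 {p : ℝ} (hp : 1 < p) {U F : ℝ → ℝ} {a b : ℝ} (hab : a ≤ b)
    (hκ : 0 < κ) (hUc : Continuous U)
    (hF : ∀ x ∈ Icc a b, HasDerivAt F (κ ^ 2 - U x - F x ^ 2) x)
    (ha : F a = κ) (hb : F b ≤ -κ) :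
    Mconst p * Ip p * κ ^ (2 * p - 1) ≤ ∫ x in a..b, (max (U x) 0) ^ p := by
  have hFc : ContinuousOn F (Icc a b) := fun x hx => (hF x hx).continuousAt.continuousWithinAt
  have hdc : ContinuousOn (fun x => κ ^ 2 - U x - F x ^ 2) (Icc a b) := by
    apply ContinuousOn.sub
    · exact (continuous_const.sub hUc).continuousOn
    · exact hFc.pow 2
  have hm := mu_continuous hp κ
  have huIcc : uIcc a b = Icc a b := uIcc_of_le hab
  have i1 := integral_mu_comp hp κ (a := a) (b := b) (F := F)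
    (F' := fun x => κ ^ 2 - U x - F x ^ 2) (by rw [huIcc]; exact hF) (by rw [huIcc]; exact hdc)
  rw [ha] at i1
  have hsplit : ∫ s in (F b)..κ, mu p κ s
      = (∫ s in (F b)..(-κ), mu p κ s) + ∫ s in (-κ)..κ, mu p κ s :=
    (intervalIntegral.integral_add_adjacent_intervals (hm.intervalIntegrable _ _)
      (hm.intervalIntegrable _ _)).symm
  have hnn : 0 ≤ ∫ s in (F b)..(-κ), mu p κ s :=
    intervalIntegral.integral_nonneg hb (fun s _ => mu_nonneg hp κ s)
  rw [intervalIntegral.integral_symm (F b) κ, hsplit, integral_mu hp hκ] at i1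
  have hpt : ∀ x ∈ Icc a b, - (mu p κ (F x) * (κ ^ 2 - U x - F x ^ 2)) ≤ (max (U x) 0) ^ p := by
    intro x _
    have s2 := keller_ineq hp (κ ^ 2 - F x ^ 2) (U x - (κ ^ 2 - F x ^ 2))
    have e3 : κ ^ 2 - F x ^ 2 + (U x - (κ ^ 2 - F x ^ 2)) = U x := by ring
    rw [e3] at s2
    simp only [mu]
    nlinarith
  have hc1 : ContinuousOn (fun x => - (mu p κ (F x) * (κ ^ 2 - U x - F x ^ 2))) (Icc a b) :=
    ((hm.comp_continuousOn hFc).mul hdc).neg
  have hc2 : Continuous (fun x => (max (U x) 0) ^ p) := by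
    apply Continuous.rpow_const (by fun_prop)
    intro x; exact Or.inr (by linarith)
  have hii : IntervalIntegrable (fun x => - (mu p κ (F x) * (κ ^ 2 - U x - F x ^ 2)))
      volume a b := by
    rw [← huIcc] at hc1; exact hc1.intervalIntegrable
  have hmono := intervalIntegral.integral_mono_on hab hii (hc2.intervalIntegrable a b) hpt
  rw [intervalIntegral.integral_neg, i1] at hmono
  calc Mconst p * Ip p * κ ^ (2 * p - 1) ≤ (∫ s in (F b)..(-κ), mu p κ s)
        + Mconst p * κ ^ (2 * p - 1) * Ip p := by nlinarith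
    _ = - -((∫ s in (F b)..(-κ), mu p κ s) + Mconst p * κ ^ (2 * p - 1) * Ip p) := by ring
    _ ≤ _ := hmono

/-- For a solution that is nonzero at `a` with `ψ'(a) = κ ψ(a)` and satisfies `ψ'(b) = -κ ψ(b)`,
there is a point `c ∈ [a, b]` before the first zero at which the Riccati variable is `≤ -κ`. -/
lemma Sol.exists_point (hs : Sol V κ ψ ψ') {a b : ℝ} (hab : a ≤ b) (ha : ψ a ≠ 0)
    (hb : ψ' b = -κ * ψ b) :
    ∃ c ∈ Icc a b, (∀ x ∈ Icc a c, ψ x ≠ 0) ∧ ψ' c / ψ c ≤ -κ := by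
  have hψc : Continuous ψ := continuous_iff_continuousAt.2 fun x => (hs.d1 x).continuousAt
  by_cases hZ : ∀ x ∈ Icc a b, ψ x ≠ 0
  · refine ⟨b, ⟨hab, le_rfl⟩, hZ, ?_⟩
    rw [hb]
    have := hZ b ⟨hab, le_rfl⟩
    apply le_of_eq
    field_simp
  · push Not at hZ
    have hcomp : IsCompact (Icc a b ∩ ψ ⁻¹' {0}) :=
      isCompact_Icc.inter_right (isClosed_singleton.preimage hψc)
    obtain ⟨x, hx, hx0⟩ := hZ
    obtain ⟨z, hz, hzmin⟩ := hcomp.exists_isLeast ⟨x, hx, hx0⟩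
    have hz0 : ψ z = 0 := hz.2
    have haz : a < z := by
      rcases lt_or_eq_of_le hz.1.1 with h | h
      · exact h
      · exact absurd (h ▸ hz0) ha
    have hne : ∀ y ∈ Ico a z, ψ y ≠ 0 := by
      intro y hy hy0
      have := hzmin ⟨⟨hy.1, hy.2.le.trans hz.1.2⟩, hy0⟩
      linarith [hy.2]
    by_contra hcon
    push Not at hcon
    -- then F > -κ on [a, z)
    have hF : ∀ y ∈ Ico a z, -κ < ψ' y / ψ y := by
      intro y hy
      apply hcon y ⟨hy.1, hy.2.le.trans hz.1.2⟩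
      intro w hw
      exact hne w ⟨hw.1, lt_of_le_of_lt hw.2 hy.2⟩
    have hg : ∀ y, HasDerivAt (fun y => (ψ y * exp (κ * y)) ^ 2)
        (2 * (ψ y * (ψ' y + κ * ψ y)) * exp (κ * y) ^ 2) y := by
      intro y
      have h2 : HasDerivAt (fun y => exp (κ * y)) (exp (κ * y) * (κ * 1)) y :=
        ((hasDerivAt_id y).const_mul κ).exp
      refine (((hs.d1 y).mul h2).pow 2).congr_deriv ?_
      simp only [Nat.cast_ofNat, Nat.add_one_sub_one, pow_one, Pi.mul_apply]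
      ring
    have hmono : MonotoneOn (fun y => (ψ y * exp (κ * y)) ^ 2) (Icc a z) := by
      apply monotoneOn_of_deriv_nonneg (convex_Icc a z)
      · exact fun y _ => (hg y).continuousAt.continuousWithinAt
      · exact fun y _ => (hg y).differentiableAt.differentiableWithinAt
      · intro y hy
        rw [interior_Icc] at hy
        rw [(hg y).deriv]
        have h1 := hF y ⟨hy.1.le, hy.2⟩
        have h2 := hne y ⟨hy.1.le, hy.2⟩
        have h3 : ψ y * (ψ' y + κ * ψ y) = ψ y ^ 2 * (ψ' y / ψ y + κ) := by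
          field_simp
        rw [h3]
        have : 0 ≤ ψ y ^ 2 * (ψ' y / ψ y + κ) := mul_nonneg (sq_nonneg _) (by linarith)
        positivity
    have h5 := hmono (left_mem_Icc.2 haz.le) (right_mem_Icc.2 haz.le) haz.le
    simp only [hz0, zero_mul] at h5
    have h6 : 0 < (ψ a * exp (κ * a)) ^ 2 := by
      have : ψ a * exp (κ * a) ≠ 0 := mul_ne_zero ha (exp_pos _).ne'
      positivity
    have h7 : (0 : ℝ) ^ 2 = 0 := by norm_num
    rw [h7] at h5
    linarith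

end Vale.Agent.Lib.P371
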