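import Mathlib

/-!
# Conventions of problem P371 (scalar case)
-/

namespace Vale.Agent.Lib.P371

/-- The semiclassical constant `L^cl_γ = Γ(γ+1) / (2 √π Γ(γ+3/2))`. -/
noncomputable def Lcl (γ : ℝ) : ℝ :=
  Real.Gamma (γ + 1) / (2 * Real.sqrt Real.pi * Real.Gamma (γ + 3 / 2))

/-- The one-bound-state constant `L^(1)_γ = 2 ((γ-1/2)/(γ+1/2))^(γ-1/2) L^cl_γ`. -/
noncomputable def Lone (γ : ℝ) : ℝ :=
  2 * ((γ - 1 / 2) / (γ + 1 / 2)) ^ (γ - 1 / 2) * Lcl γ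

/-- `ψ` is a square integrable classical solution of `-ψ'' - V ψ = E ψ` on the real line. -/
def IsEigenfunction (V : ℝ → ℝ) (E : ℝ) (ψ : ℝ → ℝ) : Prop :=
  Differentiable ℝ ψ ∧ Differentiable ℝ (deriv ψ) ∧
    (∀ x, - deriv (deriv ψ) x - V x * ψ x = E * ψ x) ∧
    MeasureTheory.MemLp ψ 2 MeasureTheory.volume

end Vale.Agent.Lib.P371
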