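import Mathlib

/-!
# Pointwise inequalities behind the Riccati calibration
-/

namespace Vale.Agent.Lib.P371

open Real Set

/-- The constant `M_p = p (p/(p-1))^(p-1)`. -/
noncomputable def Mconst (p : ℝ) : ℝ := p * (p / (p - 1)) ^ (p - 1)

lemma Mconst_pos {p : ℝ} (hp : 1 < p) : 0 < Mconst p := by
  unfold Mconst
  have : 0 < p / (p - 1) := div_pos (by linarith) (by linarith)
  positivity

/-- Tangent line inequality `M (t - 1) ≤ t^p` for `t ≥ 0`. -/
lemma tangent_ineq {p : ℝ} (hp : 1 < p) {t : ℝ} (ht : 0 ≤ t) : Mconst p * (t - 1) ≤ t ^ p := by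
  set c := p / (p - 1) with hc
  have hp1 : 0 < p - 1 := by linarith
  have hcpos : 0 < c := div_pos (by linarith) hp1
  have hs : -1 ≤ t / c - 1 := by
    have : 0 ≤ t / c := div_nonneg ht hcpos.le
    linarith
  have hB := one_add_mul_self_le_rpow_one_add hs hp.le
  have h1 : (1 + (t / c - 1)) = t / c := by ring
  rw [h1, div_rpow ht hcpos.le] at hB
  have hcp : 0 < c ^ p := rpow_pos_of_pos hcpos p
  rw [le_div_iff₀ hcp] at hB
  have hcp' : c ^ p = c * c ^ (p - 1) := by
    rw [← rpow_one_add' hcpos.le (by linarith)]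
    congr 1; ring
  have hpc : (p - 1) * c = p := by
    rw [hc]; field_simp
  have hcq : 0 < c ^ (p - 1) := rpow_pos_of_pos hcpos _
  have : Mconst p * (t - 1) = (1 + p * (t / c - 1)) * c ^ p := by
    unfold Mconst
    rw [hcp', ← hc]
    have h2 : (1 + p * (t / c - 1)) * (c * c ^ (p - 1))
        = (c - p * c + p * t) * c ^ (p - 1) := by
      field_simp
      ring
    rw [h2]
    have h3 : c - p * c = - p := by linarith
    rw [h3]; ring
  rw [this]
  exact hB

lemma Mconst_le_two_rpow {p : ℝ} (hp : 1 < p) : Mconst p ≤ 2 ^ p := by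
  have := tangent_ineq hp (t := 2) (by norm_num)
  linarith

/-- Concavity estimate `2^p t ≤ (1+t)^p - (1-t)^p` on `[0,1]` for `1 < p ≤ 2`. -/
lemma concave_ineq {p : ℝ} (hp : 1 < p) (hp2 : p ≤ 2) {t : ℝ} (ht0 : 0 ≤ t) (ht1 : t ≤ 1) :
    2 ^ p * t ≤ (1 + t) ^ p - (1 - t) ^ p := by
  set φ : ℝ → ℝ := fun s => (1 + s) ^ p - (1 - s) ^ p with hφ
  have hconc : ConcaveOn ℝ (Icc (0 : ℝ) 1) φ := by
    apply concaveOn_of_hasDerivWithinAt2_nonpos (convex_Icc 0 1)
      (f' := fun s => p * (1 + s) ^ (p - 1) + p * (1 - s) ^ (p - 1))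
      (f'' := fun s => p * ((p - 1) * (1 + s) ^ (p - 2)) - p * ((p - 1) * (1 - s) ^ (p - 2)))
    · apply ContinuousOn.sub
      · exact ContinuousOn.rpow_const (by fun_prop) (fun x _ => Or.inr (by linarith))
      · exact ContinuousOn.rpow_const (by fun_prop) (fun x _ => Or.inr (by linarith))
    · intro x hx
      rw [interior_Icc] at hx
      apply HasDerivAt.hasDerivWithinAt
      have h1 : HasDerivAt (fun s : ℝ => (1 + s) ^ p) (1 * p * (1 + x) ^ (p - 1)) x :=
        ((hasDerivAt_id x).const_add 1).rpow_const (Or.inr hp.le)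
      have h2 : HasDerivAt (fun s : ℝ => (1 - s) ^ p) (-1 * p * (1 - x) ^ (p - 1)) x :=
        ((hasDerivAt_id x).const_sub 1).rpow_const (Or.inr hp.le)
      have h3 := h1.sub h2
      have e : 1 * p * (1 + x) ^ (p - 1) - -1 * p * (1 - x) ^ (p - 1)
          = p * (1 + x) ^ (p - 1) + p * (1 - x) ^ (p - 1) := by ring
      rw [e] at h3
      exact h3
    · intro x hx
      rw [interior_Icc] at hx
      apply HasDerivAt.hasDerivWithinAt
      have h1 : HasDerivAt (fun s : ℝ => (1 + s) ^ (p - 1)) (1 * (p - 1) * (1 + x) ^ (p - 1 - 1)) x :=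
        ((hasDerivAt_id x).const_add 1).rpow_const (Or.inl (by simp only [id]; linarith [hx.1]))
      have h2 : HasDerivAt (fun s : ℝ => (1 - s) ^ (p - 1))
          (-1 * (p - 1) * (1 - x) ^ (p - 1 - 1)) x :=
        ((hasDerivAt_id x).const_sub 1).rpow_const (Or.inl (by simp only [id]; linarith [hx.2]))
      have h3 := (h1.const_mul p).add (h2.const_mul p)
      have e0 : p - 1 - 1 = p - 2 := by ring
      have e : p * (1 * (p - 1) * (1 + x) ^ (p - 1 - 1)) + p * (-1 * (p - 1) * (1 - x) ^ (p - 1 - 1))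
          = p * ((p - 1) * (1 + x) ^ (p - 2)) - p * ((p - 1) * (1 - x) ^ (p - 2)) := by
        rw [e0]; ring
      rw [e] at h3
      exact h3
    · intro x hx
      rw [interior_Icc] at hx
      have h1 : (1 + x) ^ (p - 2) ≤ (1 - x) ^ (p - 2) :=
        rpow_le_rpow_of_nonpos (by linarith [hx.2]) (by linarith [hx.1]) (by linarith)
      have h2 : 0 ≤ p * (p - 1) := by nlinarith
      nlinarith
  have h := hconc.2 (show (0 : ℝ) ∈ Icc (0 : ℝ) 1 by simp) (show (1 : ℝ) ∈ Icc (0 : ℝ) 1 by simp)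
    (show 0 ≤ 1 - t by linarith) ht0 (by ring)
  simp only [smul_eq_mul, mul_zero, mul_one, zero_add, hφ, add_zero, sub_zero, one_rpow, sub_self]
    at h
  have h0 : (0 : ℝ) ^ p = 0 := zero_rpow (by linarith)
  rw [h0] at h
  have h11 : (1 : ℝ) + 1 = 2 := by norm_num
  rw [h11] at h
  linarith

/-- The normalized one-step inequality. -/
lemma step_ineq_normalized {p : ℝ} (hp : 1 < p) (hp2 : p ≤ 2) {t : ℝ} (ht0 : 0 ≤ t) :
    Mconst p * t + (max (1 - t) 0) ^ p ≤ (1 + t) ^ p := by
  rcases le_or_gt t 1 with ht1 | ht1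
  · rw [max_eq_left (by linarith)]
    have h1 := concave_ineq hp hp2 ht0 ht1
    have h2 := Mconst_le_two_rpow hp
    nlinarith
  · rw [max_eq_right (by linarith), zero_rpow (by linarith)]
    have := tangent_ineq hp (t := 1 + t) (by linarith)
    have h3 : 1 + t - 1 = t := by ring
    rw [h3] at this
    linarith

/-- Keller-type pointwise inequality. -/
lemma keller_ineq {p : ℝ} (hp : 1 < p) (G w : ℝ) :
    Mconst p * (max G 0) ^ (p - 1) * w ≤ (max (G + w) 0) ^ p := by
  have hRHS : 0 ≤ (max (G + w) 0) ^ p := rpow_nonneg (le_max_right _ _) _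
  rcases le_or_gt G 0 with hG | hG
  · rw [max_eq_right hG, zero_rpow (by linarith)]
    simpa using hRHS
  · rw [max_eq_left hG.le]
    have hM := Mconst_pos hp
    have hGq : 0 < G ^ (p - 1) := rpow_pos_of_pos hG _
    rcases le_or_gt (G + w) 0 with h | h
    · have hw : w ≤ 0 := by linarith
      have : Mconst p * G ^ (p - 1) * w ≤ 0 :=
        mul_nonpos_of_nonneg_of_nonpos (mul_pos hM hGq).le hw
      linarith
    · rw [max_eq_left h.le]
      have ht : 0 ≤ (G + w) / G := (div_pos h hG).le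
      have h1 := tangent_ineq hp ht
      rw [div_rpow h.le hG.le, le_div_iff₀ (rpow_pos_of_pos hG p)] at h1
      have hGp : G ^ p = G * G ^ (p - 1) := by
        rw [← rpow_one_add' hG.le (by linarith)]
        congr 1; ring
      have : Mconst p * ((G + w) / G - 1) * G ^ p = Mconst p * G ^ (p - 1) * w := by
        rw [hGp]; field_simp; ring
      rw [← this]
      exact h1

/-- One-step pointwise inequality, valid for `w ≥ 0`. -/
lemma step_ineq {p : ℝ} (hp : 1 < p) (hp2 : p ≤ 2) (G w : ℝ) (hw : 0 ≤ w) :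
    Mconst p * (max G 0) ^ (p - 1) * w + (max (G - w) 0) ^ p ≤ (max (G + w) 0) ^ p := by
  rcases le_or_gt G 0 with hG | hG
  · rw [max_eq_right hG, zero_rpow (by linarith)]
    simp only [mul_zero, zero_mul, zero_add]
    exact rpow_le_rpow (le_max_right _ _) (max_le_max (by linarith) le_rfl) (by linarith)
  · rw [max_eq_left hG.le, max_eq_left (by linarith : 0 ≤ G + w)]
    have ht : 0 ≤ w / G := div_nonneg hw hG.le
    have h1 := step_ineq_normalized hp hp2 ht
    have hGp : G ^ p = G * G ^ (p - 1) := by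
      rw [← rpow_one_add' hG.le (by linarith)]
      congr 1; ring
    have hGpp : 0 < G ^ p := rpow_pos_of_pos hG p
    have e1 : (G + w) ^ p = (1 + w / G) ^ p * G ^ p := by
      rw [← mul_rpow (by linarith) hG.le]
      congr 1; field_simp
    have e2 : (max (G - w) 0) ^ p = (max (1 - w / G) 0) ^ p * G ^ p := by
      rw [← mul_rpow (le_max_right _ _) hG.le]
      congr 1
      rw [max_mul_of_nonneg _ _ hG.le]
      congr 1
      · field_simp
      · ring
    have e3 : Mconst p * G ^ (p - 1) * w = Mconst p * (w / G) * G ^ p := by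
      rw [hGp]; field_simp
    rw [e1, e2, e3, ← add_mul]
    exact mul_le_mul_of_nonneg_right h1 hGpp.le

end Vale.Agent.Lib.P371
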