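import Vale.Agent.Lib.P371.Riccati

namespace Vale.Agent.Lib.P371

open Real Set MeasureTheory

variable {V : ℝ → ℝ} {κ : ℝ} {ψ ψ' : ℝ → ℝ}

/-- On the side where `V` is nonincreasing the positive bound state is log-concave. -/
lemma Sol.right_logconcave (hs : Sol V κ ψ ψ') (hκ : 0 < κ) (hpos : ∀ x, 0 < ψ x)
    (hV0 : ∀ x, 0 ≤ V x) {xm A : ℝ} (hanti : AntitoneOn V (Ici xm))
    (hbc : ∀ x, A ≤ x → ψ' x = - κ * ψ x) {x1 : ℝ} (hx1 : xm ≤ x1) :
    κ ^ 2 - V x1 ≤ (ψ' x1 / ψ x1) ^ 2 := by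
  by_contra hcon
  push Not at hcon
  obtain ⟨b, hb⟩ : ∃ b, b = κ ^ 2 - V x1 := ⟨_, rfl⟩
  rw [← hb] at hcon
  have hb0 : 0 < b := lt_of_le_of_lt (sq_nonneg _) hcon
  obtain ⟨s, hs'⟩ : ∃ s, s = Real.sqrt b := ⟨_, rfl⟩
  have hs0 : 0 < s := by rw [hs']; exact Real.sqrt_pos.2 hb0
  have hss : s ^ 2 = b := by rw [hs']; exact Real.sq_sqrt hb0.le
  have hsκ : s ≤ κ := by
    have : s ^ 2 ≤ κ ^ 2 := by rw [hss, hb]; linarith [hV0 x1]
    exact (pow_le_pow_iff_left₀ hs0.le hκ.le (by norm_num)).1 this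
  have hF : - s < ψ' x1 / ψ x1 := by
    have : (ψ' x1 / ψ x1) ^ 2 < s ^ 2 := by rw [hss]; exact hcon
    exact (abs_lt.1 (abs_lt_of_sq_lt_sq this hs0.le)).1
  have hu1 : 0 < ψ' x1 + s * ψ x1 := by
    have h1 : 0 < (ψ' x1 / ψ x1 + s) * ψ x1 := mul_pos (by linarith) (hpos x1)
    have h2 : (ψ' x1 / ψ x1 + s) * ψ x1 = ψ' x1 + s * ψ x1 := by
      have := (hpos x1).ne'
      field_simp
    linarith
  -- g = (ψ' + s ψ) e^{-s x} is monotone on [x1, ∞)
  have hg : ∀ x, HasDerivAt (fun y => (ψ' y + s * ψ y) * exp (-s * y))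
      ((κ ^ 2 - V x - b) * ψ x * exp (-s * x)) x := by
    intro x
    have h1 : HasDerivAt (fun y => ψ' y + s * ψ y) ((κ ^ 2 - V x) * ψ x + s * ψ' x) x :=
      (hs.d2 x).add ((hs.d1 x).const_mul s)
    have h2 : HasDerivAt (fun y => exp (-s * y)) (exp (-s * x) * (-s * 1)) x :=
      ((hasDerivAt_id x).const_mul (-s)).exp
    refine (h1.mul h2).congr_deriv ?_
    rw [← hss]; ring
  have hmono : MonotoneOn (fun y => (ψ' y + s * ψ y) * exp (-s * y)) (Ici x1) := by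
    apply monotoneOn_of_deriv_nonneg (convex_Ici x1)
    · exact fun x _ => (hg x).continuousAt.continuousWithinAt
    · exact fun x _ => (hg x).differentiableAt.differentiableWithinAt
    · intro x hx
      rw [interior_Ici] at hx
      rw [(hg x).deriv]
      have hVx : V x ≤ V x1 := hanti hx1 (hx1.trans (le_of_lt hx)) (le_of_lt hx)
      have : 0 ≤ κ ^ 2 - V x - b := by rw [hb]; linarith
      exact mul_nonneg (mul_nonneg this (hpos x).le) (exp_pos _).le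
  have hx2 : x1 ≤ max x1 A := le_max_left _ _
  have h3 := hmono (mem_Ici.2 le_rfl) (mem_Ici.2 hx2) hx2
  simp only at h3
  have h4 : 0 < (ψ' x1 + s * ψ x1) * exp (-s * x1) := mul_pos hu1 (exp_pos _)
  have h5 : ψ' (max x1 A) + s * ψ (max x1 A) ≤ 0 := by
    rw [hbc _ (le_max_right _ _)]
    have := hpos (max x1 A)
    nlinarith
  have h6 : (ψ' (max x1 A) + s * ψ (max x1 A)) * exp (-s * max x1 A) ≤ 0 :=
    mul_nonpos_of_nonpos_of_nonneg h5 (exp_pos _).le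
  linarith

lemma Sol.left_logconcave (hs : Sol V κ ψ ψ') (hκ : 0 < κ) (hpos : ∀ x, 0 < ψ x)
    (hV0 : ∀ x, 0 ≤ V x) {xm A : ℝ} (hmono : MonotoneOn V (Iic xm))
    (hbc : ∀ x, x ≤ -A → ψ' x = κ * ψ x) {x1 : ℝ} (hx1 : x1 ≤ xm) :
    κ ^ 2 - V x1 ≤ (ψ' x1 / ψ x1) ^ 2 := by
  have h := hs.reflect.right_logconcave hκ (fun x => hpos (-x)) (fun x => hV0 (-x))
    (xm := -xm) (A := A) ?_ ?_ (x1 := -x1) (by linarith)
  · simp only [neg_neg] at h
    rw [neg_div, neg_sq] at h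
    exact h
  · intro x hx y hy hxy
    simp only [mem_Ici] at hx hy
    exact hmono (by simp only [mem_Iic]; linarith) (by simp only [mem_Iic]; linarith)
      (by linarith)
  · intro x hx
    rw [hbc (-x) (by linarith)]
    ring

/-- The ground state of a unimodal compactly supported potential is log-concave. -/
lemma Sol.logconcave (hs : Sol V κ ψ ψ') (hκ : 0 < κ) (hpos : ∀ x, 0 < ψ x)
    (hV0 : ∀ x, 0 ≤ V x) {xm A : ℝ} (hmono : MonotoneOn V (Iic xm))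
    (hanti : AntitoneOn V (Ici xm))
    (hbcl : ∀ x, x ≤ -A → ψ' x = κ * ψ x) (hbcr : ∀ x, A ≤ x → ψ' x = - κ * ψ x) (x : ℝ) :
    κ ^ 2 - V x ≤ (ψ' x / ψ x) ^ 2 := by
  rcases le_total x xm with h | h
  · exact hs.left_logconcave hκ hpos hV0 hmono hbcl h
  · exact hs.right_logconcave hκ hpos hV0 hanti hbcr h

end Vale.Agent.Lib.P371
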