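import Vale.Agent.Lib.P371.Core
import Vale.Agent.Lib.P371.Defs

namespace Vale.Agent.Lib.P371

open Real Set MeasureTheory

lemma Lone_mul {p : ℝ} (hp : 1 < p) : Lone (p - 1 / 2) * (Mconst p * Ip p) = 1 := by
  have hp0 : 0 < p := by linarith
  rw [Ip_eq hp0]
  unfold Lone Lcl Mconst
  have e1 : p - 1 / 2 - 1 / 2 = p - 1 := by ring
  have e2 : p - 1 / 2 + 1 / 2 = p := by ring
  have e3 : p - 1 / 2 + 1 = p + 1 / 2 := by ring
  have e4 : p - 1 / 2 + 3 / 2 = p + 1 := by ring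
  rw [e1, e2, e3, e4, Real.Gamma_add_one hp0.ne']
  have hG1 : 0 < Real.Gamma p := Real.Gamma_pos_of_pos hp0
  have hG2 : 0 < Real.Gamma (p + 1 / 2) := Real.Gamma_pos_of_pos (by linarith)
  have hpi : 0 < Real.sqrt π := Real.sqrt_pos.2 Real.pi_pos
  have hq : ((p - 1) / p) ^ (p - 1) * (p / (p - 1)) ^ (p - 1) = 1 := by
    rw [← mul_rpow (div_pos (by linarith) hp0).le (div_pos hp0 (by linarith)).le]
    have : (p - 1) / p * (p / (p - 1)) = 1 := by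
      have : p - 1 ≠ 0 := by linarith
      field_simp
    rw [this, one_rpow]
  calc 2 * ((p - 1) / p) ^ (p - 1) * (Real.Gamma (p + 1 / 2) / (2 * √π * (p * Real.Gamma p))) *
        (p * (p / (p - 1)) ^ (p - 1) * (√π * Real.Gamma p / Real.Gamma (p + 1 / 2)))
      = (((p - 1) / p) ^ (p - 1) * (p / (p - 1)) ^ (p - 1)) *
        ((2 * Real.Gamma (p + 1 / 2) * p * √π * Real.Gamma p) /
          (2 * √π * (p * Real.Gamma p) * Real.Gamma (p + 1 / 2))) := by ring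
    _ = 1 := by
        rw [hq, one_mul]
        field_simp

/-- The two-eigenvalue estimate at the level of classical solutions. -/
theorem two_eigenvalues_sol {p : ℝ} (hp : 1 < p) (hp2 : p ≤ 2) {V : ℝ → ℝ} (hVc : Continuous V)
    (hV0 : ∀ x, 0 ≤ V x) {A : ℝ} (hA : ∀ x, A ≤ |x| → V x = 0) {xm : ℝ}
    (hmono : MonotoneOn V (Iic xm)) (hanti : AntitoneOn V (Ici xm))
    {κ₁ κ₂ : ℝ} (hκ₂ : 0 < κ₂) (hκ : κ₂ < κ₁) {ψ₁ ψ₁' ψ₂ ψ₂' : ℝ → ℝ}
    (h1 : Sol V κ₁ ψ₁ ψ₁') (h2 : Sol V κ₂ ψ₂ ψ₂')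
    (hi1 : Integrable (fun x => ψ₁ x ^ 2)) (hi2 : Integrable (fun x => ψ₂ x ^ 2))
    (hpos : ∀ x, 0 < ψ₁ x) {z : ℝ} (hneg2 : ∀ x, x < z → ψ₂ x < 0)
    (hpos2 : ∀ x, z < x → 0 < ψ₂ x) :
    κ₁ ^ (2 * p - 1) + κ₂ ^ (2 * p - 1) ≤ Lone (p - 1 / 2) * ∫ x, V x ^ p := by
  have hκ₁ : 0 < κ₁ := hκ₂.trans hκ
  have hVr : ∀ x, A ≤ x → V x = 0 := fun x hx => hA x (hx.trans (le_abs_self x))
  have hVl : ∀ x, x ≤ -A → V x = 0 := fun x hx => hA x (by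
    have := neg_abs_le x
    have h3 : -x ≤ |x| := neg_le_abs x
    linarith)
  have hr1 := h1.right_bc hκ₁ hVr hi1
  have hl1 := h1.left_bc hκ₁ hVl hi1
  have hr2 := h2.right_bc hκ₂ hVr hi2
  have hl2 := h2.left_bc hκ₂ hVl hi2
  have hne1 : ∀ x, ψ₁ x ≠ 0 := fun x => (hpos x).ne'
  have hlc := h1.logconcave hκ₁ hpos hV0 hmono hanti hl1 hr1
  have hW := wronskian_pos h1 h2 hκ hκ₂ hpos hneg2 hpos2 hl1 hr1 hl2 hr2
  have hD := darboux h1 h2 hne1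
  have hne2 : ∀ x, ψ₂' x - ψ₁' x / ψ₁ x * ψ₂ x ≠ 0 := by
    intro x
    have h3 : ψ₂' x - ψ₁' x / ψ₁ x * ψ₂ x = (ψ₁ x * ψ₂' x - ψ₁' x * ψ₂ x) / ψ₁ x := by
      have := hne1 x
      field_simp
    rw [h3]
    exact (div_pos (hW x) (hpos x)).ne'
  obtain ⟨B, hB⟩ : ∃ B, B = max A (|z| + 1) := ⟨_, rfl⟩
  have hBA : A ≤ B := by rw [hB]; exact le_max_left _ _
  have hBz : |z| + 1 ≤ B := by rw [hB]; exact le_max_right _ _
  have hz1 : -B < z := by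
    have := neg_abs_le z
    linarith
  have hz2 : z < B := by
    have := le_abs_self z
    linarith
  have hB0 : 0 < B := by
    have := abs_nonneg z
    linarith
  have hcore := core hp hp2 (V := V) (κ₁ := κ₁) (κ₂ := κ₂) (a := -B) (b := B)
    (F₁ := fun y => ψ₁' y / ψ₁ y)
    (F₂ := fun y => (- (ψ₁' y / ψ₁ y) * (ψ₂' y - ψ₁' y / ψ₁ y * ψ₂ y) - (κ₁ ^ 2 - κ₂ ^ 2) * ψ₂ y)
      / (ψ₂' y - ψ₁' y / ψ₁ y * ψ₂ y))
    (by linarith) hκ₁ hκ₂ hVc hV0 (h1.riccati hne1) (hD.riccati hne2) hlc ?_ ?_ ?_ ?_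
  · -- conclude
    have hsupp : Function.support (fun x => V x ^ p) ⊆ Ioc (-B) B := by
      intro x hx
      have hVx : V x ≠ 0 := by
        intro h0
        apply hx
        simp only [h0]
        exact zero_rpow (by linarith)
      have hxA : |x| < A := by
        by_contra hcon
        exact hVx (hA x (not_lt.1 hcon))
      have := abs_lt.1 (lt_of_lt_of_le hxA hBA)
      exact ⟨this.1, this.2.le⟩
    rw [intervalIntegral.integral_eq_integral_of_support_subset hsupp] at hcore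
    have hL := Lone_mul hp
    have hLpos : 0 ≤ Lone (p - 1 / 2) := by
      have hMI : 0 < Mconst p * Ip p := by
        rw [Ip_eq (by linarith)]
        have hG1 : 0 < Real.Gamma p := Real.Gamma_pos_of_pos (by linarith)
        have hG2 : 0 < Real.Gamma (p + 1 / 2) := Real.Gamma_pos_of_pos (by linarith)
        have hpi : 0 < Real.sqrt π := Real.sqrt_pos.2 Real.pi_pos
        have := Mconst_pos hp
        positivity
      by_contra hcon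
      push Not at hcon
      have : Lone (p - 1 / 2) * (Mconst p * Ip p) < 0 := mul_neg_of_neg_of_pos hcon hMI
      linarith
    calc κ₁ ^ (2 * p - 1) + κ₂ ^ (2 * p - 1)
        = Lone (p - 1 / 2) * (Mconst p * Ip p * (κ₁ ^ (2 * p - 1) + κ₂ ^ (2 * p - 1))) := by
          rw [← mul_assoc, hL, one_mul]
      _ ≤ Lone (p - 1 / 2) * ∫ x, V x ^ p := mul_le_mul_of_nonneg_left hcore hLpos
  · have := hne1 (-B)
    rw [hl1 (-B) (by linarith)]
    field_simp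
  · have := hne1 B
    rw [hr1 B hBA]
    field_simp
  · have h3 := hne1 (-B)
    have h4 : ψ₂ (-B) ≠ 0 := (hneg2 _ hz1).ne
    have h5 : κ₂ - κ₁ ≠ 0 := by linarith
    rw [hl1 (-B) (by linarith), hl2 (-B) (by linarith)]
    have e1 : κ₁ * ψ₁ (-B) / ψ₁ (-B) = κ₁ := by field_simp
    rw [e1]
    have e2 : κ₂ * ψ₂ (-B) - κ₁ * ψ₂ (-B) = (κ₂ - κ₁) * ψ₂ (-B) := by ring
    rw [e2, div_eq_iff (mul_ne_zero h5 h4)]
    ring
  · have h3 := hne1 B
    have h4 : ψ₂ B ≠ 0 := (hpos2 _ hz2).ne'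
    have h5 : κ₁ - κ₂ ≠ 0 := by linarith
    rw [hr1 B hBA, hr2 B hBA]
    have e1 : -κ₁ * ψ₁ B / ψ₁ B = -κ₁ := by field_simp
    rw [e1]
    have e2 : -κ₂ * ψ₂ B - -κ₁ * ψ₂ B = (κ₁ - κ₂) * ψ₂ B := by ring
    rw [e2, div_eq_iff (mul_ne_zero h5 h4)]
    ring

lemma IsEigenfunction.sol {V : ℝ → ℝ} {E : ℝ} {ψ : ℝ → ℝ} (h : IsEigenfunction V E ψ)
    (hE : E < 0) : Sol V (Real.sqrt (-E)) ψ (deriv ψ) := by
  obtain ⟨h1, h2, h3, _⟩ := h
  constructor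
  · intro x; exact (h1 x).hasDerivAt
  · intro x
    have h4 := (h2 x).hasDerivAt
    have h5 : deriv (deriv ψ) x = (Real.sqrt (-E) ^ 2 - V x) * ψ x := by
      rw [Real.sq_sqrt (by linarith)]
      have := h3 x
      linarith
    rwa [h5] at h4

/-- The two-eigenvalue Lieb-Thirring estimate for unimodal potentials. -/
theorem two_eigenvalues {γ : ℝ} (hγ1 : 1 / 2 < γ) (hγ2 : γ ≤ 3 / 2) {V : ℝ → ℝ}
    (hVc : Continuous V) (hV0 : ∀ x, 0 ≤ V x) (hsupp : HasCompactSupport V) {xm : ℝ}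
    (hmono : MonotoneOn V (Iic xm)) (hanti : AntitoneOn V (Ici xm))
    {E₁ E₂ : ℝ} (hE : E₁ < E₂) (hE2 : E₂ < 0) {ψ₁ ψ₂ : ℝ → ℝ}
    (h1 : IsEigenfunction V E₁ ψ₁) (h2 : IsEigenfunction V E₂ ψ₂)
    (hpos : ∀ x, 0 < ψ₁ x) {z : ℝ} (hneg2 : ∀ x, x < z → ψ₂ x < 0)
    (hpos2 : ∀ x, z < x → 0 < ψ₂ x) :
    |E₁| ^ γ + |E₂| ^ γ ≤ Lone γ * ∫ x, V x ^ (γ + 1 / 2) := by
  have hE1 : E₁ < 0 := hE.trans hE2
  obtain ⟨r, hr⟩ := hsupp.isCompact.isBounded.subset_closedBall 0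
  have hA : ∀ x, r + 1 ≤ |x| → V x = 0 := by
    intro x hx
    apply image_eq_zero_of_notMem_tsupport
    intro hmem
    have := hr hmem
    rw [mem_closedBall_zero_iff, Real.norm_eq_abs] at this
    linarith
  have hκ₂ : 0 < Real.sqrt (-E₂) := Real.sqrt_pos.2 (by linarith)
  have hκ : Real.sqrt (-E₂) < Real.sqrt (-E₁) := Real.sqrt_lt_sqrt (by linarith) (by linarith)
  have key := two_eigenvalues_sol (p := γ + 1 / 2) (by linarith) (by linarith) hVc hV0 hA hmono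
    hanti hκ₂ hκ (h1.sol hE1) (h2.sol hE2) h1.2.2.2.integrable_sq h2.2.2.2.integrable_sq hpos
    hneg2 hpos2
  have e0 : γ + 1 / 2 - 1 / 2 = γ := by ring
  have epow : ∀ E : ℝ, E < 0 → Real.sqrt (-E) ^ (2 * (γ + 1 / 2) - 1) = |E| ^ γ := by
    intro E hE
    rw [abs_of_neg hE, Real.sqrt_eq_rpow, ← rpow_mul (by linarith)]
    congr 1
    ring
  rw [e0, epow E₁ hE1, epow E₂ hE2] at key
  exact key

end Vale.Agent.Lib.P371
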