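import Vale.Agent.Lib.P371.Core2
import Vale.Agent.Lib.P371.Main

namespace Vale.Agent.Lib.P371

open Real Set MeasureTheory

lemma Sol.riccati_at {V : ℝ → ℝ} {κ : ℝ} {ψ ψ' : ℝ → ℝ} (hs : Sol V κ ψ ψ') {x : ℝ}
    (hne : ψ x ≠ 0) :
    HasDerivAt (fun y => ψ' y / ψ y) (κ ^ 2 - V x - (ψ' x / ψ x) ^ 2) x := by
  refine ((hs.d2 x).div (hs.d1 x) hne).congr_deriv ?_
  field_simp

/-- Ground state plus an arbitrary further eigenvalue, at the level of classical solutions. -/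
theorem ground_plus_any_sol {p : ℝ} (hp : 1 < p) (hp2 : p ≤ 2) {V : ℝ → ℝ} (hVc : Continuous V)
    (hV0 : ∀ x, 0 ≤ V x) {Cv : ℝ} (hVb : ∀ x, V x ≤ Cv) {A : ℝ} (hA : ∀ x, A ≤ |x| → V x = 0)
    {xm : ℝ} (hmono : MonotoneOn V (Iic xm)) (hanti : AntitoneOn V (Ici xm))
    {κ₁ κ₂ : ℝ} (hκ₂ : 0 < κ₂) (hκ : κ₂ < κ₁) {ψ₁ ψ₁' ψ₂ ψ₂' : ℝ → ℝ}
    (h1 : Sol V κ₁ ψ₁ ψ₁') (h2 : Sol V κ₂ ψ₂ ψ₂')
    (hi1 : Integrable (fun x => ψ₁ x ^ 2)) (hi2 : Integrable (fun x => ψ₂ x ^ 2))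
    (hpos : ∀ x, 0 < ψ₁ x) (hnz : ∃ x, ψ₂ x ≠ 0) :
    κ₁ ^ (2 * p - 1) + κ₂ ^ (2 * p - 1) ≤ Lone (p - 1 / 2) * ∫ x, V x ^ p := by
  have hκ₁ : 0 < κ₁ := hκ₂.trans hκ
  have hVr : ∀ x, A ≤ x → V x = 0 := fun x hx => hA x (hx.trans (le_abs_self x))
  have hVl : ∀ x, x ≤ -A → V x = 0 := fun x hx => hA x (by
    have h3 : -x ≤ |x| := neg_le_abs x
    linarith)
  have hr1 := h1.right_bc hκ₁ hVr hi1
  have hl1 := h1.left_bc hκ₁ hVl hi1
  have hr2 := h2.right_bc hκ₂ hVr hi2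
  have hl2 := h2.left_bc hκ₂ hVl hi2
  have hne1 : ∀ x, ψ₁ x ≠ 0 := fun x => (hpos x).ne'
  have hlc := h1.logconcave hκ₁ hpos hV0 hmono hanti hl1 hr1
  have hD := darboux h1 h2 hne1
  obtain ⟨B, hB⟩ : ∃ B, B = max A 0 := ⟨_, rfl⟩
  have hBA : A ≤ B := by rw [hB]; exact le_max_left _ _
  have hB0 : 0 ≤ B := by rw [hB]; exact le_max_right _ _
  -- ψ₂ does not vanish at -B
  have hψ2B : ψ₂ (-B) ≠ 0 := by
    intro h0
    have h0' : ψ₂' (-B) = 0 := by rw [hl2 (-B) (by linarith), h0, mul_zero]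
    obtain ⟨x, hx⟩ := hnz
    apply hx
    refine h2.eq_zero (C := κ₂ ^ 2 + Cv) ?_ h0 h0' x
    intro y
    rw [abs_le]
    constructor
    · nlinarith [hVb y, hV0 y, sq_nonneg κ₂]
    · nlinarith [hVb y, hV0 y, sq_nonneg κ₂]
  have hF1c : Continuous (fun y => ψ₁' y / ψ₁ y) :=
    continuous_iff_continuousAt.2 fun x => (h1.riccati hne1 x).continuousAt
  have hUc : Continuous (fun x => 2 * (κ₁ ^ 2 - (ψ₁' x / ψ₁ x) ^ 2) - V x) := by fun_prop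
  have eL : ψ₁' (-B) / ψ₁ (-B) = κ₁ := by
    have := hne1 (-B)
    rw [hl1 (-B) (by linarith)]
    field_simp
  have eR : ψ₁' B / ψ₁ B = -κ₁ := by
    have := hne1 B
    rw [hr1 B hBA]
    field_simp
  have htL : ψ₂' (-B) - ψ₁' (-B) / ψ₁ (-B) * ψ₂ (-B) = (κ₂ - κ₁) * ψ₂ (-B) := by
    rw [eL, hl2 (-B) (by linarith)]; ring
  have htLne : ψ₂' (-B) - ψ₁' (-B) / ψ₁ (-B) * ψ₂ (-B) ≠ 0 := by
    rw [htL]
    exact mul_ne_zero (by linarith) hψ2B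
  obtain ⟨c, hc, hcne, hcF⟩ := hD.exists_point (a := -B) (b := B) (by linarith) htLne (by
    rw [eR, hr2 B hBA]; ring)
  have hc1 := core1 hp hp2 (V := V) (κ₁ := κ₁) (a := -B) (b := B)
    (F₁ := fun y => ψ₁' y / ψ₁ y) (by linarith) hκ₁ hVc hV0 (h1.riccati hne1) hlc eL eR
  have hc2 := core2 hp (κ := κ₂) (U := fun x => 2 * (κ₁ ^ 2 - (ψ₁' x / ψ₁ x) ^ 2) - V x)
    (F := fun y => (- (ψ₁' y / ψ₁ y) * (ψ₂' y - ψ₁' y / ψ₁ y * ψ₂ y) - (κ₁ ^ 2 - κ₂ ^ 2) * ψ₂ y)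
      / (ψ₂' y - ψ₁' y / ψ₁ y * ψ₂ y)) (a := -B) (b := c) hc.1 hκ₂ hUc
    (fun x hx => hD.riccati_at (hcne x hx)) (by
      rw [div_eq_iff htLne, htL, eL]
      ring) hcF
  have hcont : Continuous (fun x => (max (2 * (κ₁ ^ 2 - (ψ₁' x / ψ₁ x) ^ 2) - V x) 0) ^ p) := by
    apply Continuous.rpow_const (by fun_prop)
    intro x; exact Or.inr (by linarith)
  have hmi : ∫ x in (-B)..c, (max (2 * (κ₁ ^ 2 - (ψ₁' x / ψ₁ x) ^ 2) - V x) 0) ^ p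
      ≤ ∫ x in (-B)..B, (max (2 * (κ₁ ^ 2 - (ψ₁' x / ψ₁ x) ^ 2) - V x) 0) ^ p := by
    apply intervalIntegral.integral_mono_interval le_rfl hc.1 hc.2
    · exact Filter.Eventually.of_forall fun x => rpow_nonneg (le_max_right _ _) _
    · exact hcont.intervalIntegrable _ _
  have hcore : Mconst p * Ip p * (κ₁ ^ (2 * p - 1) + κ₂ ^ (2 * p - 1))
      ≤ ∫ x in (-B)..B, V x ^ p := by
    calc Mconst p * Ip p * (κ₁ ^ (2 * p - 1) + κ₂ ^ (2 * p - 1))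
        = Mconst p * Ip p * κ₁ ^ (2 * p - 1) + Mconst p * Ip p * κ₂ ^ (2 * p - 1) := by ring
      _ ≤ _ := by linarith
  have hsupp : Function.support (fun x => V x ^ p) ⊆ Ioc (-B) B := by
    intro x hx
    have hVx : V x ≠ 0 := by
      intro h0
      apply hx
      simp only [h0]
      exact zero_rpow (by linarith)
    have hxA : |x| < A := by
      by_contra hcon
      exact hVx (hA x (not_lt.1 hcon))
    have := abs_lt.1 (lt_of_lt_of_le hxA hBA)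
    exact ⟨this.1, this.2.le⟩
  rw [intervalIntegral.integral_eq_integral_of_support_subset hsupp] at hcore
  have hL := Lone_mul hp
  have hLpos : 0 ≤ Lone (p - 1 / 2) := by
    have hMI : 0 < Mconst p * Ip p := by
      rw [Ip_eq (by linarith)]
      have hG1 : 0 < Real.Gamma p := Real.Gamma_pos_of_pos (by linarith)
      have hG2 : 0 < Real.Gamma (p + 1 / 2) := Real.Gamma_pos_of_pos (by linarith)
      have hpi : 0 < Real.sqrt π := Real.sqrt_pos.2 Real.pi_pos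
      have := Mconst_pos hp
      positivity
    by_contra hcon
    push Not at hcon
    have : Lone (p - 1 / 2) * (Mconst p * Ip p) < 0 := mul_neg_of_neg_of_pos hcon hMI
    linarith
  calc κ₁ ^ (2 * p - 1) + κ₂ ^ (2 * p - 1)
      = Lone (p - 1 / 2) * (Mconst p * Ip p * (κ₁ ^ (2 * p - 1) + κ₂ ^ (2 * p - 1))) := by
        rw [← mul_assoc, hL, one_mul]
    _ ≤ Lone (p - 1 / 2) * ∫ x, V x ^ p := mul_le_mul_of_nonneg_left hcore hLpos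

/-- Ground state energy plus any other negative eigenvalue, for unimodal potentials. -/
theorem ground_plus_any {γ : ℝ} (hγ1 : 1 / 2 < γ) (hγ2 : γ ≤ 3 / 2) {V : ℝ → ℝ}
    (hVc : Continuous V) (hV0 : ∀ x, 0 ≤ V x) (hsupp : HasCompactSupport V) {xm : ℝ}
    (hmono : MonotoneOn V (Iic xm)) (hanti : AntitoneOn V (Ici xm))
    {E₁ E₂ : ℝ} (hE : E₁ < E₂) (hE2 : E₂ < 0) {ψ₁ ψ₂ : ℝ → ℝ}
    (h1 : IsEigenfunction V E₁ ψ₁) (h2 : IsEigenfunction V E₂ ψ₂)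
    (hpos : ∀ x, 0 < ψ₁ x) (hnz : ∃ x, ψ₂ x ≠ 0) :
    |E₁| ^ γ + |E₂| ^ γ ≤ Lone γ * ∫ x, V x ^ (γ + 1 / 2) := by
  have hE1 : E₁ < 0 := hE.trans hE2
  obtain ⟨r, hr⟩ := hsupp.isCompact.isBounded.subset_closedBall 0
  have hA : ∀ x, r + 1 ≤ |x| → V x = 0 := by
    intro x hx
    apply image_eq_zero_of_notMem_tsupport
    intro hmem
    have := hr hmem
    rw [mem_closedBall_zero_iff, Real.norm_eq_abs] at this
    linarith
  obtain ⟨Cv, hCv⟩ := hVc.bounded_above_of_compact_support hsupp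
  have hVb : ∀ x, V x ≤ Cv := fun x => (le_abs_self _).trans (hCv x)
  have hκ₂ : 0 < Real.sqrt (-E₂) := Real.sqrt_pos.2 (by linarith)
  have hκ : Real.sqrt (-E₂) < Real.sqrt (-E₁) := Real.sqrt_lt_sqrt (by linarith) (by linarith)
  have key := ground_plus_any_sol (p := γ + 1 / 2) (by linarith) (by linarith) hVc hV0 hVb hA hmono
    hanti hκ₂ hκ (h1.sol hE1) (h2.sol hE2) h1.2.2.2.integrable_sq h2.2.2.2.integrable_sq hpos hnz
  have e0 : γ + 1 / 2 - 1 / 2 = γ := by ring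
  have epow : ∀ E : ℝ, E < 0 → Real.sqrt (-E) ^ (2 * (γ + 1 / 2) - 1) = |E| ^ γ := by
    intro E hE
    rw [abs_of_neg hE, Real.sqrt_eq_rpow, ← rpow_mul (by linarith)]
    congr 1
    ring
  rw [e0, epow E₁ hE1, epow E₂ hE2] at key
  exact key

end Vale.Agent.Lib.P371
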