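import Vale.Agent.Lib.P371.Calib

namespace Vale.Agent.Lib.P371

open Real Set MeasureTheory

/-- `ψ` (with derivative `ψ'`) is a classical solution of `-ψ'' - V ψ = -κ² ψ` on the line. -/
structure Sol (V : ℝ → ℝ) (κ : ℝ) (ψ ψ' : ℝ → ℝ) : Prop where
  d1 : ∀ x, HasDerivAt ψ (ψ' x) x
  d2 : ∀ x, HasDerivAt ψ' ((κ ^ 2 - V x) * ψ x) x

variable {V : ℝ → ℝ} {κ : ℝ} {ψ ψ' : ℝ → ℝ}

lemma Sol.reflect (hs : Sol V κ ψ ψ') :
    Sol (fun x => V (-x)) κ (fun x => ψ (-x)) (fun x => - ψ' (-x)) := by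
  constructor
  · intro x
    exact ((hs.d1 (-x)).comp x (hasDerivAt_neg x)).congr_deriv (by ring)
  · intro x
    exact (((hs.d2 (-x)).comp x (hasDerivAt_neg x)).neg).congr_deriv (by ring)

lemma Sol.neg (hs : Sol V κ ψ ψ') : Sol V κ (fun x => - ψ x) (fun x => - ψ' x) := by
  constructor
  · intro x; exact (hs.d1 x).neg
  · intro x
    exact ((hs.d2 x).neg).congr_deriv (by ring)

/-- The Riccati equation for the logarithmic derivative. -/
lemma Sol.riccati (hs : Sol V κ ψ ψ') (hne : ∀ x, ψ x ≠ 0) (x : ℝ) :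
    HasDerivAt (fun y => ψ' y / ψ y) (κ ^ 2 - V x - (ψ' x / ψ x) ^ 2) x := by
  refine ((hs.d2 x).div (hs.d1 x) (hne x)).congr_deriv ?_
  have := hne x
  field_simp

/-- Boundary condition at the right end from square integrability. -/
lemma Sol.right_bc (hs : Sol V κ ψ ψ') (hκ : 0 < κ) {A : ℝ} (hV : ∀ x, A ≤ x → V x = 0)
    (hint : Integrable (fun x => ψ x ^ 2)) : ∀ x, A ≤ x → ψ' x = - κ * ψ x := by
  -- u = ψ' + κ ψ, v = ψ' - κ ψ
  have hu : ∀ x, A ≤ x → HasDerivAt (fun y => (ψ' y + κ * ψ y) * exp (-κ * y)) 0 x := by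
    intro x hx
    have h1 : HasDerivAt (fun y => ψ' y + κ * ψ y) ((κ ^ 2 - V x) * ψ x + κ * ψ' x) x :=
      (hs.d2 x).add ((hs.d1 x).const_mul κ)
    have h2 : HasDerivAt (fun y => exp (-κ * y)) (exp (-κ * x) * (-κ * 1)) x :=
      ((hasDerivAt_id x).const_mul (-κ)).exp
    refine (h1.mul h2).congr_deriv ?_
    rw [hV x hx]; ring
  have hv : ∀ x, A ≤ x → HasDerivAt (fun y => (ψ' y - κ * ψ y) * exp (κ * y)) 0 x := by
    intro x hx
    have h1 : HasDerivAt (fun y => ψ' y - κ * ψ y) ((κ ^ 2 - V x) * ψ x - κ * ψ' x) x :=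
      (hs.d2 x).sub ((hs.d1 x).const_mul κ)
    have h2 : HasDerivAt (fun y => exp (κ * y)) (exp (κ * x) * (κ * 1)) x :=
      ((hasDerivAt_id x).const_mul κ).exp
    refine (h1.mul h2).congr_deriv ?_
    rw [hV x hx]; ring
  have hconst : ∀ (g : ℝ → ℝ), (∀ x, A ≤ x → HasDerivAt g 0 x) → ∀ x, A ≤ x → g x = g A := by
    intro g hg x hx
    exact constant_of_has_deriv_right_zero
      (fun y hy => (hg y hy.1).continuousAt.continuousWithinAt)
      (fun y hy => (hg y hy.1).hasDerivWithinAt) x ⟨hx, le_rfl⟩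
  obtain ⟨C, hC⟩ : ∃ C, C = (ψ' A + κ * ψ A) * exp (-κ * A) := ⟨_, rfl⟩
  obtain ⟨D, hD⟩ : ∃ D, D = (ψ' A - κ * ψ A) * exp (κ * A) := ⟨_, rfl⟩
  have hu' : ∀ x, A ≤ x → ψ' x + κ * ψ x = C * exp (κ * x) := by
    intro x hx
    have h := hconst _ hu x hx
    rw [← hC] at h
    rw [← h, mul_assoc, ← exp_add]
    simp
  have hv' : ∀ x, A ≤ x → ψ' x - κ * ψ x = D * exp (-κ * x) := by
    intro x hx
    have h := hconst _ hv x hx
    rw [← hD] at h
    rw [← h, mul_assoc, ← exp_add]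
    simp
  have hC0 : C = 0 := by
    by_contra hCne
    -- ψ is large near infinity
    have hψ : ∀ x, A ≤ x → 2 * κ * ψ x = C * exp (κ * x) - D * exp (-κ * x) := by
      intro x hx
      have := hu' x hx
      have := hv' x hx
      linarith
    have hlim : Filter.Tendsto (fun x => |C| * exp (κ * x) + - (|D| * exp (-κ * x))) Filter.atTop
        Filter.atTop := by
      have h1 : Filter.Tendsto (fun x => |C| * exp (κ * x)) Filter.atTop Filter.atTop := by
        apply Filter.Tendsto.const_mul_atTop (abs_pos.2 hCne)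
        exact tendsto_exp_atTop.comp (Filter.tendsto_id.const_mul_atTop hκ)
      have h2 : Filter.Tendsto (fun x => |D| * exp (-κ * x)) Filter.atTop (nhds (|D| * 0)) := by
        apply Filter.Tendsto.const_mul
        apply tendsto_exp_atBot.comp
        exact Filter.tendsto_id.const_mul_atTop_of_neg (by linarith)
      exact h1.atTop_add h2.neg
    obtain ⟨x0, hx0⟩ := (Filter.tendsto_atTop.1 hlim (2 * κ)).exists_forall_of_atTop
    obtain ⟨x1, hx1⟩ : ∃ x1, x1 = max x0 A := ⟨_, rfl⟩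
    have hbig : ∀ x, x1 ≤ x → 1 ≤ ψ x ^ 2 := by
      intro x hx
      rw [hx1] at hx
      have hxA : A ≤ x := (le_max_right _ _).trans hx
      have h1 := hx0 x ((le_max_left _ _).trans hx)
      have h2 := hψ x hxA
      have h3 : |C| * exp (κ * x) - |D| * exp (-κ * x) ≤ |2 * κ * ψ x| := by
        rw [h2]
        have e1 : |C| * exp (κ * x) = |C * exp (κ * x)| := by
          rw [abs_mul, abs_of_pos (exp_pos _)]
        have e2 : |D| * exp (-κ * x) = |D * exp (-κ * x)| := by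
          rw [abs_mul, abs_of_pos (exp_pos _)]
        rw [e1, e2]
        exact abs_sub_abs_le_abs_sub _ _
      have h4 : |2 * κ * ψ x| = 2 * κ * |ψ x| := by
        rw [abs_mul, abs_of_pos (by linarith : (0 : ℝ) < 2 * κ)]
      rw [h4] at h3
      have h5 : 1 ≤ |ψ x| := by
        have : 2 * κ * 1 ≤ 2 * κ * |ψ x| := by linarith
        exact le_of_mul_le_mul_left this (by linarith)
      calc (1 : ℝ) = 1 ^ 2 := by norm_num
        _ ≤ |ψ x| ^ 2 := by gcongr
        _ = ψ x ^ 2 := sq_abs _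
    have hint1 : IntegrableOn (fun _ : ℝ => (1 : ℝ)) (Ioi x1) := by
      refine Integrable.mono' hint.integrableOn (by fun_prop) ?_
      refine (ae_restrict_iff' measurableSet_Ioi).2 (Filter.Eventually.of_forall ?_)
      intro x hx
      simpa using hbig x (le_of_lt hx)
    rw [integrableOn_const_iff] at hint1
    simp at hint1
  intro x hx
  have := hu' x hx
  rw [hC0] at this
  linarith

lemma Sol.left_bc (hs : Sol V κ ψ ψ') (hκ : 0 < κ) {A : ℝ} (hV : ∀ x, x ≤ -A → V x = 0)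
    (hint : Integrable (fun x => ψ x ^ 2)) : ∀ x, x ≤ -A → ψ' x = κ * ψ x := by
  intro x hx
  have h := hs.reflect.right_bc hκ (A := A) (fun y hy => hV (-y) (by linarith))
    (hint.comp_neg) (-x) (by linarith)
  simp only [neg_neg] at h
  linarith

end Vale.Agent.Lib.P371
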